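import Vale.Agent.P309.Main

namespace Vale.Agent.Results.P309.Lower
open Vale.Agent.P309

theorem result :
    (∀ (d M T : ℕ) (ε : ℝ) (L : Learner d M), 16 ≤ d → 0 < ε → ε ≤ 1 →
      2 / 3 ≤ success L T ε →
      (d : ℝ) * Real.log (1 / ε) ≤ 4096 * ((T : ℝ) + d) * (1 + (M : ℝ) / (d : ℝ) ^ 2)) ∧
    ∀ c : ℝ, 0 < c → ∃ c' : ℝ, 0 < c' ∧ ∃ ε₀ : ℝ, 0 < ε₀ ∧
      ∀ (d M T : ℕ) (ε : ℝ) (L : Learner d M), 16 ≤ d → 0 < ε → ε ≤ ε₀ →
        (M : ℝ) ≤ c * (d : ℝ) ^ 2 → 2 / 3 ≤ success L T ε →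
        c' * d * Real.log (1 / ε) ≤ T := by
  refine ⟨fun d M T ε L hd hε hε1 hs => tradeoff L ε hd hε hε1 T hs, fun c hc => ?_⟩
  refine ⟨1 / (8192 * (1 + c)), by positivity, Real.exp (-(8192 * (1 + c))), Real.exp_pos _,
    fun d M T ε L hd hε hε0 hM hs => ?_⟩
  have hε1 : ε ≤ 1 := hε0.trans (Real.exp_le_one_iff.2 (by nlinarith))
  have h := tradeoff L ε hd hε hε1 T hs
  have hd' : (16 : ℝ) ≤ d := by exact_mod_cast hd
  have hl : 8192 * (1 + c) ≤ Real.log (1 / ε) := by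
    have := Real.log_le_log hε hε0
    rw [Real.log_exp] at this
    rw [one_div, Real.log_inv]
    linarith
  have h1 : (M : ℝ) / (d : ℝ) ^ 2 ≤ c := by rwa [div_le_iff₀ (by positivity)]
  have h2 : (d : ℝ) * Real.log (1 / ε) ≤ 4096 * ((T : ℝ) + d) * (1 + c) :=
    h.trans (by gcongr)
  have h3 : (d : ℝ) * (8192 * (1 + c)) ≤ d * Real.log (1 / ε) := by gcongr
  rw [mul_assoc, one_div, inv_mul_le_iff₀ (by positivity)]
  nlinarith

end Vale.Agent.Results.P309.Lower
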